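import Mathlib

/-! The group ring of a group with a subgroup `ℤ ^ h` of finite index is finite over a commutative
noetherian ring in its centre, all of whose primes have height at most `h + 1`. -/

open Polynomial

namespace Vale.Agent.P246.R2.H950

/-- the dimension does not grow when passing to a subring over which the ring is integral -/
theorem dim_le_of_integral (A B : Type) [CommRing A] [CommRing B] [Algebra A B]
    [Algebra.IsIntegral A B] (hinj : Function.Injective (algebraMap A B)) :
    ringKrullDim A ≤ ringKrullDim B := by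
  refine iSup_le fun l => ?_
  obtain ⟨Q, hQ, hQl⟩ := Ideal.exists_ideal_over_prime_of_isIntegral l.head.asIdeal (⊥ : Ideal B)
    (by
      rw [← RingHom.ker_eq_comap_bot, (RingHom.injective_iff_ker_eq_bot _).1 hinj]
      exact bot_le) |>.imp fun Q hQ => hQ.2
  have : Q.LiesOver l.head.asIdeal := ⟨hQl.symm⟩
  obtain ⟨L, hL, -, -⟩ := Ideal.exists_ltSeries_of_hasGoingUp l Q
  rw [← hL]
  exact le_iSup (fun p : LTSeries (PrimeSpectrum B) => ((p.length : ℕ) : WithBot ℕ∞)) L

/-- the dimension of a localization -/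
theorem dim_localization_le (A B : Type) [CommRing A] [CommRing B] [Algebra A B]
    (S : Submonoid A) [IsLocalization S B] : ringKrullDim B ≤ ringKrullDim A := by
  rw [ringKrullDim_le_iff_height_le]
  intro P hP
  rw [← IsLocalization.height_under S P]
  have : (P.under A).IsPrime := inferInstance
  exact Ideal.height_le_ringKrullDim_of_isPrime

theorem dim_laurent (A : Type) [CommRing A] [IsNoetherianRing A] :
    ringKrullDim (LaurentPolynomial A) ≤ ringKrullDim A + 1 := by
  have h1 := dim_localization_le A[X] (LaurentPolynomial A) (Submonoid.powers (X : A[X]))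
  rwa [Polynomial.ringKrullDim_of_isNoetherianRing] at h1

/-- the group ring of `ℤ ^ k` is noetherian of dimension at most `k + 1` -/
theorem dim_zk (k : ℕ) : IsNoetherianRing (AddMonoidAlgebra ℤ (Fin k → ℤ)) ∧
    ringKrullDim (AddMonoidAlgebra ℤ (Fin k → ℤ)) ≤ ((k + 1 : ℕ) : WithBot ℕ∞) := by
  induction k with
  | zero =>
    have e : AddMonoidAlgebra ℤ (Fin 0 → ℤ) ≃+* ℤ :=
      (AddMonoidAlgebra.uniqueRingEquiv (R := ℤ) (Fin 0 → ℤ))
    refine ⟨isNoetherianRing_of_ringEquiv ℤ e.symm, ?_⟩
    rw [ringKrullDim_eq_of_ringEquiv e, IsPrincipalIdealRing.ringKrullDim_eq_one ℤ Int.not_isField]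
    simp
  | succ k ih =>
    obtain ⟨ih1, ih2⟩ := ih
    have e1 : (Fin (k + 1) → ℤ) ≃+ ℤ × (Fin k → ℤ) :=
      { toFun := fun f => (f 0, fun i => f i.succ)
        invFun := fun p => Fin.cons p.1 p.2
        left_inv := fun f => by
          funext i
          refine Fin.cases ?_ (fun j => ?_) i <;> simp
        right_inv := fun p => by ext <;> simp
        map_add' := fun f g => rfl }
    have e2 : AddMonoidAlgebra ℤ (Fin (k + 1) → ℤ) ≃+*
        LaurentPolynomial (AddMonoidAlgebra ℤ (Fin k → ℤ)) :=
      (AddMonoidAlgebra.mapDomainRingEquiv ℤ e1).trans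
        (AddMonoidAlgebra.curryAlgEquiv (A := ℤ) ℤ).toRingEquiv
    have h3 : IsNoetherianRing (LaurentPolynomial (AddMonoidAlgebra ℤ (Fin k → ℤ))) :=
      IsLocalization.isNoetherianRing
        (Submonoid.powers (X : (AddMonoidAlgebra ℤ (Fin k → ℤ))[X])) _ inferInstance
    refine ⟨isNoetherianRing_of_ringEquiv _ e2.symm, ?_⟩
    rw [ringKrullDim_eq_of_ringEquiv e2]
    refine (dim_laurent _).trans ?_
    push_cast
    push_cast at ih2
    exact add_le_add_left ih2 1

section

variable {G : Type} [Group G] {N : Type} [CommGroup N]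

/-- the action on the group ring -/
noncomputable def act (c : G →* MulAut N) : G →* RingAut (MonoidAlgebra ℤ N) where
  toFun g := MonoidAlgebra.mapDomainRingEquiv ℤ (c g)
  map_one' := by
    apply RingEquiv.ext
    intro x
    induction x using MonoidAlgebra.induction_linear with
    | zero => simp
    | add x y hx hy => rw [map_add, hx, hy, map_add]
    | single n r => simp
  map_mul' g h := by
    apply RingEquiv.ext
    intro x
    induction x using MonoidAlgebra.induction_linear with
    | zero => simp
    | add x y hx hy => rw [map_add, hx, hy, map_add]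
    | single n r => simp [RingAut.mul_apply]

theorem act_single (c : G →* MulAut N) (g : G) (n : N) (r : ℤ) :
    act c g (MonoidAlgebra.single n r) = MonoidAlgebra.single (c g n) r := by
  simp [act]

theorem comm_act (i : N →* G) (c : G →* MulAut N) (hc : ∀ g n, i (c g n) = g * i n * g⁻¹)
    (g : G) (b : MonoidAlgebra ℤ N) :
    MonoidAlgebra.single g (1 : ℤ) * MonoidAlgebra.mapDomainRingHom ℤ i b =
      MonoidAlgebra.mapDomainRingHom ℤ i (act c g b) * MonoidAlgebra.single g (1 : ℤ) := by
  induction b using MonoidAlgebra.induction_linear with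
  | zero => simp
  | add x y hx hy => simp only [map_add, mul_add, add_mul, hx, hy]
  | single n r =>
    rw [act_single]
    simp only [MonoidAlgebra.mapDomainRingHom_apply, MonoidAlgebra.mapDomain_single,
      MonoidAlgebra.single_mul_single, hc, inv_mul_cancel_right, one_mul, mul_one]

theorem central (i : N →* G) (c : G →* MulAut N) (hc : ∀ g n, i (c g n) = g * i n * g⁻¹)
    (b : MonoidAlgebra ℤ N) (hb : ∀ g, act c g b = b) (x : MonoidAlgebra ℤ G) :
    MonoidAlgebra.mapDomainRingHom ℤ i b * x = x * MonoidAlgebra.mapDomainRingHom ℤ i b := by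
  induction x using MonoidAlgebra.induction_linear with
  | zero => simp
  | add x y hx hy => simp only [mul_add, add_mul, hx, hy]
  | single g r =>
    have h1 := comm_act i c hc g b
    rw [hb] at h1
    have h2 : (MonoidAlgebra.single g r : MonoidAlgebra ℤ G) = r • MonoidAlgebra.single g 1 := by
      simp
    rw [h2, mul_smul_comm, smul_mul_assoc, h1]

theorem va2_aux [Group.FG N] (i : N →* G) (c : G →* MulAut N)
    (hc : ∀ g n, i (c g n) = g * i n * g⁻¹) (hn : i.range.Normal) (hf : i.range.FiniteIndex)
    (hk : i.range ≤ c.ker) (d : ℕ)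
    (hd : ringKrullDim (MonoidAlgebra ℤ N) ≤ ((d : ℕ) : WithBot ℕ∞)) :
    ∃ (A : Type) (_ : CommRing A) (_ : IsNoetherianRing A) (_ : Algebra A (MonoidAlgebra ℤ G)),
      Module.Finite A (MonoidAlgebra ℤ G) ∧ ∀ p : Ideal A, p.IsPrime → p.height ≤ (d : ℕ∞) := by
  classical
  -- the finite group acting
  have hk' : i.range ≤ (act c).ker := by
    intro g hg
    have h1 : c g = 1 := hk hg
    rw [MonoidHom.mem_ker]
    apply RingEquiv.ext
    intro x
    change MonoidAlgebra.mapDomainRingEquiv ℤ (c g) x = x
    rw [h1]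
    have h2 := congrArg (fun f : RingAut (MonoidAlgebra ℤ N) => f x) (act c).map_one
    simp only [act, MonoidHom.coe_mk, OneHom.coe_mk] at h2
    rw [map_one] at h2
    exact h2
  have hfk : (act c).ker.FiniteIndex := Subgroup.finiteIndex_of_le hk'
  have hfin : Finite (act c).range :=
    Finite.of_equiv _ (QuotientGroup.quotientKerEquivRange (act c)).toEquiv
  let _ : Fintype (act c).range := Fintype.ofFinite _
  -- generators of the group ring
  have hft : Algebra.FiniteType ℤ (MonoidAlgebra ℤ N) := inferInstance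
  obtain ⟨s, hs⟩ := hft.out
  let χ : MonoidAlgebra ℤ N → (MonoidAlgebra ℤ N)[X] :=
    MulSemiringAction.charpoly (act c).range
  let σ := Σ b : s, Fin ((χ b).natDegree + 1)
  let α : MvPolynomial σ ℤ →+* MonoidAlgebra ℤ N :=
    MvPolynomial.eval₂Hom (Int.castRingHom (MonoidAlgebra ℤ N)) fun x => (χ x.1).coeff x.2
  have hα : ∀ a, ∀ g, act c g (α a) = α a := by
    intro a g
    induction a using MvPolynomial.induction_on with
    | C r => simp [α]
    | add p q hp hq => rw [map_add, map_add, hp, hq]
    | mul_X p x hp =>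
      rw [map_mul, map_mul, hp]
      congr 1
      have h1 : α (MvPolynomial.X x) = (χ x.1).coeff x.2 := MvPolynomial.eval₂Hom_X' _ _ _
      rw [h1]
      exact MulSemiringAction.smul_coeff_charpoly (G := (act c).range) _ _ ⟨act c g, g, rfl⟩
  let A : Subring (MonoidAlgebra ℤ N) := α.range
  have hnoe : IsNoetherianRing A :=
    isNoetherianRing_of_surjective _ _ α.rangeRestrict α.rangeRestrict_surjective
  let ι : MonoidAlgebra ℤ N →+* MonoidAlgebra ℤ G := MonoidAlgebra.mapDomainRingHom ℤ i
  have hcen : ∀ (a : A) (x : MonoidAlgebra ℤ G),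
      (ι.comp A.subtype) a * x = x * (ι.comp A.subtype) a := by
    rintro ⟨_, a, rfl⟩ x
    exact central i c hc _ (hα a) x
  let instAR : Algebra A (MonoidAlgebra ℤ G) := (ι.comp A.subtype).toAlgebra' hcen
  let instBR : Module (MonoidAlgebra ℤ N) (MonoidAlgebra ℤ G) := Module.compHom _ ι
  have htow : IsScalarTower A (MonoidAlgebra ℤ N) (MonoidAlgebra ℤ G) := by
    refine ⟨fun a b x => ?_⟩
    change ι ((a : MonoidAlgebra ℤ N) * b) * x = ι a * (ι b * x)
    rw [map_mul, mul_assoc]
  -- integrality
  have hint : ∀ b ∈ (s : Set (MonoidAlgebra ℤ N)), IsIntegral A b := by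
    intro b hb
    have h1 : χ b ∈ Polynomial.lifts (algebraMap A (MonoidAlgebra ℤ N)) := by
      rw [Polynomial.lifts_iff_coeff_lifts]
      intro n
      rcases lt_or_ge n ((χ b).natDegree + 1) with hlt | hge
      · exact ⟨⟨(χ b).coeff n, MvPolynomial.X ⟨⟨b, hb⟩, ⟨n, hlt⟩⟩,
          MvPolynomial.eval₂Hom_X' _ _ _⟩, rfl⟩
      · exact ⟨0, by rw [map_zero, Polynomial.coeff_eq_zero_of_natDegree_lt (by omega)]⟩
    obtain ⟨p, hp1, -, hp2⟩ := Polynomial.lifts_and_natDegree_eq_and_monic h1
      (MulSemiringAction.monic_charpoly _ b)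
    exact ⟨p, hp2, by rw [← eval_map, hp1]; exact MulSemiringAction.eval_charpoly _ b⟩
  have hAB : Module.Finite A (MonoidAlgebra ℤ N) := by
    have h1 := Algebra.finite_adjoin_of_finite_of_isIntegral s.finite_toSet hint
    have h2 : Algebra.adjoin A (s : Set (MonoidAlgebra ℤ N)) = ⊤ := by
      rw [eq_top_iff]
      intro x _
      have h3 : x ∈ Algebra.adjoin ℤ (s : Set (MonoidAlgebra ℤ N)) := by rw [hs]; trivial
      induction h3 using Algebra.adjoin_induction with
      | mem x hx => exact Algebra.subset_adjoin hx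
      | algebraMap r =>
        have : algebraMap ℤ (MonoidAlgebra ℤ N) r =
            algebraMap A (MonoidAlgebra ℤ N) (algebraMap ℤ A r) := by simp
        rw [this]; exact Subalgebra.algebraMap_mem _ _
      | add x y _ _ hx hy => exact add_mem (hx trivial) (hy trivial)
      | mul x y _ _ hx hy => exact mul_mem (hx trivial) (hy trivial)
    rw [h2] at h1
    exact Module.Finite.equiv (Subalgebra.topEquiv (R := A)).toLinearEquiv
  have hBR : Module.Finite (MonoidAlgebra ℤ N) (MonoidAlgebra ℤ G) := by
    have hq : Finite (G ⧸ i.range) := inferInstance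
    refine ⟨Submodule.fg_def.2 ⟨Set.range fun q : G ⧸ i.range =>
      (MonoidAlgebra.single q.out (1 : ℤ) : MonoidAlgebra ℤ G), Set.finite_range _, ?_⟩⟩
    rw [eq_top_iff]
    intro x _
    induction x using MonoidAlgebra.induction_linear with
    | zero => exact zero_mem _
    | add x y hx hy => exact add_mem (hx trivial) (hy trivial)
    | single g r =>
      have h1 : (((g : G ⧸ i.range)).out)⁻¹ * g ∈ i.range :=
        QuotientGroup.eq.1 (QuotientGroup.out_eq' (g : G ⧸ i.range))
      have h2 : g * (((g : G ⧸ i.range)).out)⁻¹ ∈ i.range := by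
        have h3 := hn.conj_mem _ h1 (((g : G ⧸ i.range)).out)
        simpa [mul_assoc] using h3
      obtain ⟨n, hn'⟩ := h2
      have h4 : (MonoidAlgebra.single g r : MonoidAlgebra ℤ G) =
          (MonoidAlgebra.single n r : MonoidAlgebra ℤ N) •
            (MonoidAlgebra.single ((g : G ⧸ i.range)).out (1 : ℤ) : MonoidAlgebra ℤ G) := by
        change _ = ι (MonoidAlgebra.single n r) * _
        simp [ι, MonoidAlgebra.single_mul_single, hn']
      rw [h4]
      exact Submodule.smul_mem _ _ (Submodule.subset_span ⟨_, rfl⟩)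
  refine ⟨A, inferInstance, hnoe, instAR, Module.Finite.trans (MonoidAlgebra ℤ N) _,
    fun p hp => ?_⟩
  have h1 : (p.height : WithBot ℕ∞) ≤ ringKrullDim A := Ideal.height_le_ringKrullDim_of_isPrime
  have hI : Algebra.IsIntegral A (MonoidAlgebra ℤ N) := Algebra.IsIntegral.of_finite _ _
  have h2 := dim_le_of_integral A (MonoidAlgebra ℤ N) Subtype.val_injective
  have h3 := (h1.trans h2).trans hd
  exact_mod_cast h3

end

/-- a subgroup of `ℤ ^ h` has a group ring of dimension at most `h + 1` -/
theorem dim_sub (N : Type) [CommGroup N] (h : ℕ) (f : N →* Multiplicative (Fin h → ℤ))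
    (hf : Function.Injective f) : Group.FG N ∧
    ringKrullDim (MonoidAlgebra ℤ N) ≤ ((h + 1 : ℕ) : WithBot ℕ∞) := by
  let g0 : Additive N →+ (Fin h → ℤ) :=
    { toFun := fun x => Multiplicative.toAdd (f (Additive.toMul x))
      map_zero' := by simp
      map_add' := fun x y => by simp }
  let g : Additive N →ₗ[ℤ] (Fin h → ℤ) := g0.toIntLinearMap
  have hg : Function.Injective g := fun x y hxy =>
    Additive.toMul.injective (hf (Multiplicative.toAdd.injective hxy))
  let e1 : Additive N ≃ₗ[ℤ] LinearMap.range g := LinearEquiv.ofInjective g hg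
  let b := Module.finBasis ℤ (LinearMap.range g)
  let e2 : Additive N ≃ₗ[ℤ] (Fin (Module.finrank ℤ (LinearMap.range g)) → ℤ) :=
    e1.trans b.equivFun
  have hr : Module.finrank ℤ (LinearMap.range g) ≤ h := by
    have := Submodule.finrank_le (LinearMap.range g)
    rwa [Module.finrank_fin_fun] at this
  constructor
  · have h1 : AddGroup.FG (Additive N) := by
      have h2 : Module.Finite ℤ (Additive N) := Module.Finite.equiv e2.symm
      exact Module.Finite.iff_addGroup_fg.1 h2
    exact GroupFG.iff_add_fg.2 h1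
  · have e3 : MonoidAlgebra ℤ N ≃+*
        AddMonoidAlgebra ℤ (Fin (Module.finrank ℤ (LinearMap.range g)) → ℤ) :=
      (MonoidAlgebra.toAdditive ℤ N).trans
        (AddMonoidAlgebra.mapDomainRingEquiv ℤ e2.toAddEquiv)
    rw [ringKrullDim_eq_of_ringEquiv e3]
    refine (dim_zk _).2.trans ?_
    exact_mod_cast Nat.add_le_add_right hr 1

theorem va2 (G : Type) [Group G] (h : ℕ)
    (hG : ∃ N : Subgroup G, N.FiniteIndex ∧ Nonempty (N ≃* Multiplicative (Fin h → ℤ))) :
    ∃ (A : Type) (_ : CommRing A) (_ : IsNoetherianRing A) (_ : Algebra A (MonoidAlgebra ℤ G)),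
      Module.Finite A (MonoidAlgebra ℤ G) ∧ ∀ p : Ideal A, p.IsPrime → p.height ≤ (h + 1 : ℕ) := by
  obtain ⟨N, hN, ⟨e⟩⟩ := hG
  let N0 := N.normalCore
  have hle : N0 ≤ N := Subgroup.normalCore_le N
  have hf0 : N0.FiniteIndex := inferInstance
  have hn0 : N0.Normal := inferInstance
  have hab : ∀ a b : N, a * b = b * a := fun a b =>
    e.injective (by rw [map_mul, map_mul, mul_comm])
  have hcomm : ∀ a b : N0, a * b = b * a := fun a b =>
    Subtype.ext (show (a : G) * b = b * a from
      congrArg Subtype.val (hab ⟨a, hle a.2⟩ ⟨b, hle b.2⟩))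
  let inst : CommGroup N0 := { (inferInstance : Group N0) with mul_comm := hcomm }
  obtain ⟨hfg, hdim⟩ := dim_sub N0 h (e.toMonoidHom.comp (Subgroup.inclusion hle))
    (e.injective.comp (Subgroup.inclusion_injective hle))
  refine va2_aux (N := N0) N0.subtype MulAut.conjNormal (fun g n => ?_) ?_ ?_ ?_ (h + 1) hdim
  · exact MulAut.conjNormal_apply g n
  · rw [Subgroup.range_subtype]; exact hn0
  · rw [Subgroup.range_subtype]; exact hf0
  · rw [Subgroup.range_subtype]
    intro g hg
    rw [MonoidHom.mem_ker]
    ext n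
    rw [MulAut.conjNormal_apply]
    have := congrArg Subtype.val (hab ⟨g, hle hg⟩ ⟨n, hle n.2⟩)
    have h3 : g * (n : G) = n * g := this
    rw [h3]
    simp

end Vale.Agent.P246.R2.H950
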